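import Mathlib

/-! Integration by parts from the invariance of a measure under a one-parameter family of maps. -/

open MeasureTheory Set Filter Topology
open scoped ENNReal NNReal

namespace Vale.Agent.P218.CY.H316

/-- if `μ` is invariant under all `T t` and `t ↦ F (T t x)` has the derivative `F' (T t x)` with a
common integrable bound for `|t| < 1`, then `∫ F' dμ = 0` -/
theorem integral_flow_eq_zero {α : Type*} [MeasurableSpace α] {μ : Measure α} {T : ℝ → α → α}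
    (hT : ∀ t, MeasurePreserving (T t) μ μ) (hT0 : ∀ x, T 0 x = x) {F F' : α → ℝ} {B : α → ℝ}
    (hFm : AEStronglyMeasurable F μ) (hF : Integrable F μ) (hF'm : AEStronglyMeasurable F' μ)
    (hd : ∀ x t, |t| < 1 → HasDerivAt (fun s => F (T s x)) (F' (T t x)) t)
    (hB : Integrable B μ) (hb : ∀ x t, |t| < 1 → |F' (T t x)| ≤ B x) :
    ∫ x, F' x ∂μ = 0 := by
  have hball : ∀ t ∈ Metric.ball (0 : ℝ) 1, |t| < 1 := fun t ht => by
    simpa [Real.dist_eq] using ht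
  have key := hasDerivAt_integral_of_dominated_loc_of_deriv_le (μ := μ)
    (F := fun t x => F (T t x)) (F' := fun t x => F' (T t x)) (x₀ := (0 : ℝ)) (bound := B)
    (s := Metric.ball (0 : ℝ) 1) (Metric.ball_mem_nhds 0 one_pos)
    (Eventually.of_forall fun t => hFm.comp_measurePreserving (hT t))
    ((hT 0).integrable_comp_of_integrable hF)
    (hF'm.comp_measurePreserving (hT 0))
    (Eventually.of_forall fun x t ht => by
      rw [Real.norm_eq_abs]; exact hb x t (hball t ht))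
    hB
    (Eventually.of_forall fun x t ht => hd x t (hball t ht))
  have hconst : (fun t => ∫ x, F (T t x) ∂μ) = fun _ => ∫ x, F x ∂μ := by
    funext t
    have h1 := integral_map (μ := μ) (hT t).measurable.aemeasurable
      (f := F) (by rw [(hT t).map_eq]; exact hFm)
    rw [(hT t).map_eq] at h1
    exact h1.symm
  have h2 := key.2
  simp only [hT0] at h2
  rw [hconst] at h2
  exact h2.unique (hasDerivAt_const _ _)

/-- polynomial growth is absorbed by a Gaussian -/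
lemma one_add_pow_mul_exp_le (n : ℕ) {s : ℝ} (hs : 0 ≤ s) :
    (1 + s) ^ n * Real.exp (-s ^ 2 / 4) ≤ n.factorial * Real.exp 3 * Real.exp (-s ^ 2 / 8) := by
  have h1 : (1 + s) ^ n ≤ n.factorial * Real.exp (1 + s) := by
    have := Real.pow_div_factorial_le_exp (1 + s) (by linarith) n
    have hf : (0 : ℝ) < n.factorial := by positivity
    rwa [div_le_iff₀ hf, mul_comm] at this
  have h2 : Real.exp (1 + s) * Real.exp (-s ^ 2 / 4) ≤ Real.exp 3 * Real.exp (-s ^ 2 / 8) := by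
    rw [← Real.exp_add, ← Real.exp_add]
    exact Real.exp_le_exp.2 (by nlinarith [sq_nonneg (s - 4)])
  calc (1 + s) ^ n * Real.exp (-s ^ 2 / 4)
      ≤ (n.factorial * Real.exp (1 + s)) * Real.exp (-s ^ 2 / 4) :=
        mul_le_mul_of_nonneg_right h1 (Real.exp_pos _).le
    _ = n.factorial * (Real.exp (1 + s) * Real.exp (-s ^ 2 / 4)) := by ring
    _ ≤ n.factorial * (Real.exp 3 * Real.exp (-s ^ 2 / 8)) :=
        mul_le_mul_of_nonneg_left h2 (by positivity)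
    _ = _ := by ring

variable {E : Type*} [NormedAddCommGroup E] [InnerProductSpace ℝ E] [FiniteDimensional ℝ E]
  [MeasurableSpace E] [BorelSpace E]

/-- integration by parts along a flow which preserves `μ`, against the Gaussian weight -/
theorem integral_flow_gauss {μ : Measure E} {T : ℝ → E → E} {V : E → E}
    (hT : ∀ t, MeasurePreserving (T t) μ μ) (hT0 : ∀ x, T 0 x = x)
    (hV : ∀ x t, HasDerivAt (fun s => T s x) (V (T t x)) t) (hVc : Continuous V)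
    {c D : ℝ} (hc : 0 ≤ c) (hVb : ∀ x, ‖V x‖ ≤ c * (1 + ‖x‖))
    (hD : ∀ x t, |t| < 1 → ‖x‖ ^ 2 ≤ 2 * ‖T t x‖ ^ 2 + D)
    (hint : ∀ a : ℝ, 0 < a → Integrable (fun x : E => Real.exp (-a * ‖x‖ ^ 2)) μ)
    {f : E → ℝ} (hf : ContDiff ℝ 1 f) {C : ℝ} {p : ℕ} (hC : 0 ≤ C)
    (hb0 : ∀ x, |f x| ≤ C * (1 + ‖x‖) ^ p) (hb1 : ∀ x, ‖fderiv ℝ f x‖ ≤ C * (1 + ‖x‖) ^ p) :
    ∫ x, (fderiv ℝ f x (V x) - inner ℝ x (V x) / 2 * f x) * Real.exp (-‖x‖ ^ 2 / 4) ∂μ = 0 := by
  have hfd : Differentiable ℝ f := hf.differentiable (by norm_num)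
  have hfc : Continuous f := hfd.continuous
  have hf'c : Continuous (fderiv ℝ f) := hf.continuous_fderiv (by norm_num)
  have hrc : Continuous fun x : E => Real.exp (-‖x‖ ^ 2 / 4) := by fun_prop
  have hF'c : Continuous fun x => (fderiv ℝ f x (V x) - inner ℝ x (V x) / 2 * f x)
      * Real.exp (-‖x‖ ^ 2 / 4) :=
    ((hf'c.clm_apply hVc).sub (((continuous_id.inner hVc).div_const 2).mul hfc)).mul hrc
  have hFc : Continuous fun x => f x * Real.exp (-‖x‖ ^ 2 / 4) := hfc.mul hrc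
  have hFint : Integrable (fun x => f x * Real.exp (-‖x‖ ^ 2 / 4)) μ := by
    refine ((hint (1 / 8) (by norm_num)).const_mul (C * (p.factorial * Real.exp 3))).mono'
      hFc.aestronglyMeasurable (Eventually.of_forall fun x => ?_)
    have h1 := one_add_pow_mul_exp_le p (norm_nonneg x)
    rw [Real.norm_eq_abs, abs_mul, abs_of_pos (Real.exp_pos _)]
    calc |f x| * Real.exp (-‖x‖ ^ 2 / 4) ≤ (C * (1 + ‖x‖) ^ p) * Real.exp (-‖x‖ ^ 2 / 4) :=
          mul_le_mul_of_nonneg_right (hb0 x) (Real.exp_pos _).le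
      _ = C * ((1 + ‖x‖) ^ p * Real.exp (-‖x‖ ^ 2 / 4)) := by ring
      _ ≤ C * (p.factorial * Real.exp 3 * Real.exp (-‖x‖ ^ 2 / 8)) :=
          mul_le_mul_of_nonneg_left h1 hC
      _ = _ := by
          rw [show -‖x‖ ^ 2 / 8 = -(1 / 8) * ‖x‖ ^ 2 by ring]; ring
  have hF'b : ∀ y, |(fderiv ℝ f y (V y) - inner ℝ y (V y) / 2 * f y)
      * Real.exp (-‖y‖ ^ 2 / 4)| ≤ 2 * (C * c * ((p + 2).factorial * Real.exp 3))
        * Real.exp (-‖y‖ ^ 2 / 8) := by
    intro y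
    have hy := norm_nonneg y
    have h1 := one_add_pow_mul_exp_le (p + 2) hy
    have e1 : |fderiv ℝ f y (V y)| ≤ C * c * (1 + ‖y‖) ^ (p + 2) := by
      have a1 : ‖fderiv ℝ f y (V y)‖ ≤ ‖fderiv ℝ f y‖ * ‖V y‖ := (fderiv ℝ f y).le_opNorm _
      rw [Real.norm_eq_abs] at a1
      have a2 : ‖fderiv ℝ f y‖ * ‖V y‖ ≤ (C * (1 + ‖y‖) ^ p) * (c * (1 + ‖y‖)) :=
        mul_le_mul (hb1 y) (hVb y) (norm_nonneg _) (by positivity)
      have a3 : (C * (1 + ‖y‖) ^ p) * (c * (1 + ‖y‖)) ≤ C * c * (1 + ‖y‖) ^ (p + 2) := by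
        have : (1 + ‖y‖) ^ (p + 1) ≤ (1 + ‖y‖) ^ (p + 2) :=
          pow_le_pow_right₀ (by linarith) (by omega)
        calc (C * (1 + ‖y‖) ^ p) * (c * (1 + ‖y‖)) = C * c * (1 + ‖y‖) ^ (p + 1) := by ring
          _ ≤ _ := mul_le_mul_of_nonneg_left this (by positivity)
      linarith
    have e2 : |inner ℝ y (V y) / 2 * f y| ≤ C * c * (1 + ‖y‖) ^ (p + 2) := by
      have a1 : |inner ℝ y (V y)| ≤ ‖y‖ * ‖V y‖ := abs_real_inner_le_norm _ _
      have a2 : ‖y‖ * ‖V y‖ ≤ (1 + ‖y‖) * (c * (1 + ‖y‖)) :=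
        mul_le_mul (by linarith) (hVb y) (norm_nonneg _) (by positivity)
      rw [abs_mul, abs_div, abs_of_pos (by norm_num : (0 : ℝ) < 2)]
      have a3 : |inner ℝ y (V y)| / 2 ≤ (1 + ‖y‖) * (c * (1 + ‖y‖)) := by
        have := abs_nonneg (inner ℝ y (V y) : ℝ)
        linarith
      calc |inner ℝ y (V y)| / 2 * |f y| ≤ ((1 + ‖y‖) * (c * (1 + ‖y‖))) * (C * (1 + ‖y‖) ^ p) :=
            mul_le_mul a3 (hb0 y) (abs_nonneg _) (by positivity)
        _ = _ := by ring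
    rw [abs_mul, abs_of_pos (Real.exp_pos _)]
    have e3 : |fderiv ℝ f y (V y) - inner ℝ y (V y) / 2 * f y|
        ≤ 2 * (C * c * (1 + ‖y‖) ^ (p + 2)) := by
      have := abs_sub (fderiv ℝ f y (V y)) (inner ℝ y (V y) / 2 * f y)
      linarith
    calc |fderiv ℝ f y (V y) - inner ℝ y (V y) / 2 * f y| * Real.exp (-‖y‖ ^ 2 / 4)
        ≤ (2 * (C * c * (1 + ‖y‖) ^ (p + 2))) * Real.exp (-‖y‖ ^ 2 / 4) :=
          mul_le_mul_of_nonneg_right e3 (Real.exp_pos _).le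
      _ = 2 * (C * c) * ((1 + ‖y‖) ^ (p + 2) * Real.exp (-‖y‖ ^ 2 / 4)) := by ring
      _ ≤ 2 * (C * c) * ((p + 2).factorial * Real.exp 3 * Real.exp (-‖y‖ ^ 2 / 8)) :=
          mul_le_mul_of_nonneg_left h1 (by positivity)
      _ = _ := by ring
  refine integral_flow_eq_zero (F := fun x => f x * Real.exp (-‖x‖ ^ 2 / 4))
    (B := fun x => 2 * (C * c * ((p + 2).factorial * Real.exp 3)) * Real.exp (D / 16)
      * Real.exp (-(1 / 16) * ‖x‖ ^ 2)) hT hT0 hFc.aestronglyMeasurable hFint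
    hF'c.aestronglyMeasurable ?_ ((hint (1 / 16) (by norm_num)).const_mul _) ?_
  · intro x t _
    have h1 : HasDerivAt (fun s => f (T s x)) (fderiv ℝ f (T t x) (V (T t x))) t :=
      (hfd (T t x)).hasFDerivAt.comp_hasDerivAt t (hV x t)
    have h2 : HasDerivAt (fun s => ‖T s x‖ ^ 2) (2 * inner ℝ (T t x) (V (T t x))) t :=
      (hV x t).norm_sq
    have h3 : HasDerivAt (fun s => -‖T s x‖ ^ 2 / 4) (-(2 * inner ℝ (T t x) (V (T t x))) / 4) t :=
      h2.neg.div_const 4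
    have h4 := h1.mul h3.exp
    refine h4.congr_deriv ?_
    ring
  · intro x t ht
    refine (hF'b (T t x)).trans ?_
    have h1 := hD x t ht
    have h2 : Real.exp (-‖T t x‖ ^ 2 / 8) ≤ Real.exp (D / 16) * Real.exp (-(1 / 16) * ‖x‖ ^ 2) := by
      rw [← Real.exp_add]
      exact Real.exp_le_exp.2 (by linarith)
    calc 2 * (C * c * ((p + 2).factorial * Real.exp 3)) * Real.exp (-‖T t x‖ ^ 2 / 8)
        ≤ 2 * (C * c * ((p + 2).factorial * Real.exp 3))
          * (Real.exp (D / 16) * Real.exp (-(1 / 16) * ‖x‖ ^ 2)) :=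
          mul_le_mul_of_nonneg_left h2 (by positivity)
      _ = _ := by ring

/-- integration by parts along a translation -/
theorem integral_transl {μ : Measure E} {e : E}
    (hT : ∀ t : ℝ, MeasurePreserving (fun x : E => x + t • e) μ μ)
    (hint : ∀ a : ℝ, 0 < a → Integrable (fun x : E => Real.exp (-a * ‖x‖ ^ 2)) μ)
    {f : E → ℝ} (hf : ContDiff ℝ 1 f) {C : ℝ} {p : ℕ} (hC : 0 ≤ C)
    (hb0 : ∀ x, |f x| ≤ C * (1 + ‖x‖) ^ p) (hb1 : ∀ x, ‖fderiv ℝ f x‖ ≤ C * (1 + ‖x‖) ^ p) :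
    ∫ x, (fderiv ℝ f x e - inner ℝ x e / 2 * f x) * Real.exp (-‖x‖ ^ 2 / 4) ∂μ = 0 := by
  refine integral_flow_gauss (T := fun t x => x + t • e) (V := fun _ => e) (c := ‖e‖)
    (D := 2 * ‖e‖ ^ 2) hT (fun x => by simp) (fun x t => ?_) continuous_const (norm_nonneg _)
    (fun x => ?_) (fun x t ht => ?_) hint hf hC hb0 hb1
  · have := ((hasDerivAt_id t).smul_const e).const_add x
    simpa using this
  · have := norm_nonneg x
    have := norm_nonneg e
    nlinarith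
  · have h1 : ‖x‖ ≤ ‖x + t • e‖ + |t| * ‖e‖ := by
      have := norm_sub_le (x + t • e) (t • e)
      rw [add_sub_cancel_right, norm_smul, Real.norm_eq_abs] at this
      exact this
    have h2 : |t| * ‖e‖ ≤ ‖e‖ := by
      have := norm_nonneg e
      nlinarith
    have h3 : ‖x‖ ≤ ‖x + t • e‖ + ‖e‖ := by linarith
    have h4 : ‖x‖ ^ 2 ≤ (‖x + t • e‖ + ‖e‖) ^ 2 := pow_le_pow_left₀ (norm_nonneg _) h3 2
    nlinarith [sq_nonneg (‖x + t • e‖ - ‖e‖)]

/-- integration by parts along a rotation field -/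
theorem integral_rot {μ : Measure E} {T : ℝ → E → E} {J : E →L[ℝ] E}
    (hT : ∀ t, MeasurePreserving (T t) μ μ) (hT0 : ∀ x, T 0 x = x)
    (hJ : ∀ x t, HasDerivAt (fun s => T s x) (J (T t x)) t)
    (hn : ∀ x t, ‖T t x‖ = ‖x‖) (hJ0 : ∀ x, inner ℝ x (J x) = 0)
    (hint : ∀ a : ℝ, 0 < a → Integrable (fun x : E => Real.exp (-a * ‖x‖ ^ 2)) μ)
    {f : E → ℝ} (hf : ContDiff ℝ 1 f) {C : ℝ} {p : ℕ} (hC : 0 ≤ C)
    (hb0 : ∀ x, |f x| ≤ C * (1 + ‖x‖) ^ p) (hb1 : ∀ x, ‖fderiv ℝ f x‖ ≤ C * (1 + ‖x‖) ^ p) :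
    ∫ x, fderiv ℝ f x (J x) * Real.exp (-‖x‖ ^ 2 / 4) ∂μ = 0 := by
  have h := integral_flow_gauss (V := fun x => J x) (c := ‖J‖) (D := 0) hT hT0 hJ J.continuous
    (norm_nonneg _) (fun x => ?_) (fun x t _ => ?_) hint hf hC hb0 hb1
  · simpa [hJ0] using h
  · have h1 := J.le_opNorm x
    have h2 := norm_nonneg J
    nlinarith
  · rw [hn]
    nlinarith [sq_nonneg ‖x‖]

end Vale.Agent.P218.CY.H316
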